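import Mathlib.Analysis.CStarAlgebra.Matrix
import Mathlib.Analysis.Matrix.PosDef
import Mathlib.Analysis.Matrix.Order
import Mathlib.Analysis.SpecialFunctions.Log.Deriv
import Mathlib.LinearAlgebra.Matrix.Charpoly.Coeff
import Mathlib.MeasureTheory.Integral.Bochner.Basic
import Mathlib.MeasureTheory.Function.LocallyIntegrable
import Mathlib.Topology.Instances.Matrix
import Mathlib.Analysis.Normed.Lp.MeasurableSpace
import Mathlib.MeasureTheory.Function.SpecialFunctions.Inner
import Mathlib.Analysis.Calculus.LocalExtr.Basic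
import Mathlib.Analysis.Calculus.Deriv.Polynomial

/-!
# P254, block S: the gauge `E D²φ = I`

`γ` is the source measure, `μ` the target.  If for every positive definite matrix `L` there is a
convex potential `φ_L` whose gradient `T_L` pushes `γ` to `L_* μ`, then for some `L` the matrix
`E z_i T_L(z)_j` is the identity: `L` minimises `E ⟨T_L(z), z⟩ - log det L`.
-/

open MeasureTheory Matrix Filter Topology
open scoped Matrix

noncomputable section

set_option linter.unusedSectionVars false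

namespace Vale.Agent.P254.H545

/-- Euclidean space -/
abbrev E (n : ℕ) := EuclideanSpace ℝ (Fin n)

variable {n : ℕ}

/-- a matrix acting on Euclidean space -/
abbrev act (L : Matrix (Fin n) (Fin n) ℝ) : E n →L[ℝ] E n := Matrix.toEuclideanCLM (𝕜 := ℝ) L

/-- `T` is the gradient of the convex function `φ`, `R` its inverse, and `T` maps `γ` to `μ`. -/
structure Pot (γ μ : Measure (E n)) (φ : E n → ℝ) (T R : E n → E n) : Prop where
  young : ∀ z w, φ z + inner ℝ (T z) (w - z) ≤ φ w
  left : ∀ z, R (T z) = z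
  right : ∀ y, T (R y) = y
  measT : Measurable T
  measR : Measurable R
  intφ : Integrable φ γ
  map : γ.map T = μ
  lip : ∃ C : ℝ, 0 ≤ C ∧ ∀ y y', ‖R y - R y'‖ ≤ C * ‖y - y'‖

/-- the Legendre transform of the potential -/
def leg (φ : E n → ℝ) (R : E n → E n) (y : E n) : ℝ := inner ℝ y (R y) - φ (R y)

namespace Pot

variable {γ μ : Measure (E n)} {φ : E n → ℝ} {T R : E n → E n} (h : Pot γ μ φ T R)

include h

theorem inner_le (y w : E n) : inner ℝ y w ≤ leg φ R y + φ w := by
  have := h.young (R y) w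
  rw [h.right, inner_sub_right] at this
  unfold leg
  linarith

theorem leg_T (z : E n) : leg φ R (T z) = inner ℝ (T z) z - φ z := by
  unfold leg; rw [h.left]

/-- the gradient inequality for the Legendre transform, with the Lipschitz bound -/
theorem leg_le {C : ℝ} (hC : ∀ y y', ‖R y - R y'‖ ≤ C * ‖y - y'‖) (y v : E n) :
    leg φ R (y + v) ≤ leg φ R y + inner ℝ (R y) v + C * ‖v‖ ^ 2 := by
  -- convexity at `y + v`
  have h1 := h.inner_le y (R (y + v))
  have h2 : inner ℝ (y + v) (R (y + v)) = inner ℝ y (R (y + v)) + inner ℝ v (R (y + v)) :=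
    inner_add_left _ _ _
  have h3 : inner ℝ v (R (y + v)) = inner ℝ (R y) v + inner ℝ v (R (y + v) - R y) := by
    rw [inner_sub_right, real_inner_comm v (R y)]; ring
  have h4 : inner ℝ v (R (y + v) - R y) ≤ C * ‖v‖ ^ 2 := by
    refine (real_inner_le_norm _ _).trans ?_
    have := hC (y + v) y
    rw [add_sub_cancel_left] at this
    calc ‖v‖ * ‖R (y + v) - R y‖ ≤ ‖v‖ * (C * ‖v‖) :=
          mul_le_mul_of_nonneg_left this (norm_nonneg _)
      _ = C * ‖v‖ ^ 2 := by ring
  have h5 : leg φ R (y + v) = inner ℝ (y + v) (R (y + v)) - φ (R (y + v)) := rfl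
  rw [h5, h2, h3]
  linarith

end Pot

section Main

variable {γ μ : Measure (E n)} [IsProbabilityMeasure γ] [IsProbabilityMeasure μ]

theorem int_inner {Ω : Type*} [MeasurableSpace Ω] {ν : Measure Ω} {f g : Ω → E n}
    (hf : Measurable f) (hg : Measurable g) (hf2 : Integrable (fun x => ‖f x‖ ^ 2) ν)
    (hg2 : Integrable (fun x => ‖g x‖ ^ 2) ν) : Integrable (fun x => inner ℝ (f x) (g x)) ν := by
  refine (hf2.add hg2).mono' (hf.inner hg).aestronglyMeasurable ?_
  refine Eventually.of_forall fun x => ?_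
  simp only [Pi.add_apply, Real.norm_eq_abs]
  have h1 := abs_real_inner_le_norm (f x) (g x)
  nlinarith [sq_nonneg (‖f x‖ - ‖g x‖), norm_nonneg (f x), norm_nonneg (g x)]

theorem int_act (hμ : Integrable (fun x : E n => ‖x‖ ^ 2) μ) (S : Matrix (Fin n) (Fin n) ℝ) :
    Integrable (fun x => ‖act S x‖ ^ 2) μ := by
  refine (hμ.const_mul (‖act S‖ ^ 2)).mono'
    ((act S).continuous.norm.pow 2).aestronglyMeasurable (Eventually.of_forall fun x => ?_)
  rw [Real.norm_eq_abs, abs_of_nonneg (by positivity)]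
  rw [← mul_pow]
  exact pow_le_pow_left₀ (norm_nonneg _) ((act S).le_opNorm x) 2

/-- a family of potentials -/
structure Fam (γ μ : Measure (E n)) (φ : Matrix (Fin n) (Fin n) ℝ → E n → ℝ)
    (T R : Matrix (Fin n) (Fin n) ℝ → E n → E n) : Prop where
  γ2 : Integrable (fun x : E n => ‖x‖ ^ 2) γ
  μ2 : Integrable (fun x : E n => ‖x‖ ^ 2) μ
  pot : ∀ L : Matrix (Fin n) (Fin n) ℝ, L.PosDef → Pot γ (μ.map (act L)) (φ L) (T L) (R L)

variable {φ : Matrix (Fin n) (Fin n) ℝ → E n → ℝ} {T R : Matrix (Fin n) (Fin n) ℝ → E n → E n}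

/-- the coupling: the Gaussian variable as a function of the target variable -/
def Zf (R : Matrix (Fin n) (Fin n) ℝ → E n → E n) (L : Matrix (Fin n) (Fin n) ℝ) (x : E n) :
    E n := R L (act L x)

namespace Fam

variable (h : Fam γ μ φ T R) {L L' : Matrix (Fin n) (Fin n) ℝ}

include h

theorem meas_Z (hL : L.PosDef) : Measurable (Zf R L) :=
  (h.pot L hL).measR.comp (act L).continuous.measurable

theorem map_Z (hL : L.PosDef) : μ.map (Zf R L) = γ := by
  have hp := h.pot L hL
  have e1 : μ.map (Zf R L) = (μ.map (act L)).map (R L) :=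
    (Measure.map_map hp.measR (act L).continuous.measurable).symm
  rw [e1, ← hp.map, Measure.map_map hp.measR hp.measT]
  have : R L ∘ T L = id := funext fun z => hp.left z
  rw [this, Measure.map_id]

theorem int_T2 (hL : L.PosDef) : Integrable (fun z => ‖T L z‖ ^ 2) γ := by
  have hp := h.pot L hL
  have h1 : Integrable (fun y : E n => ‖y‖ ^ 2) (γ.map (T L)) := by
    rw [hp.map, integrable_map_measure (by fun_prop) (act L).continuous.measurable.aemeasurable]
    exact int_act h.μ2 L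
  rwa [integrable_map_measure (by fun_prop) hp.measT.aemeasurable] at h1

theorem int_Z2 (hL : L.PosDef) : Integrable (fun x => ‖Zf R L x‖ ^ 2) μ := by
  have h1 : Integrable (fun z : E n => ‖z‖ ^ 2) (μ.map (Zf R L)) := by
    rw [h.map_Z hL]; exact h.γ2
  rwa [integrable_map_measure (by fun_prop) (h.meas_Z hL).aemeasurable] at h1

/-- change of variables from the Gaussian side to the target side -/
theorem integral_T (hL : L.PosDef) {f : E n → ℝ} (hf : Measurable f) :
    ∫ z, f (T L z) ∂γ = ∫ x, f (act L x) ∂μ := by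
  have hp := h.pot L hL
  rw [← integral_map hp.measT.aemeasurable hf.aestronglyMeasurable, hp.map,
    integral_map (act L).continuous.measurable.aemeasurable hf.aestronglyMeasurable]

theorem measLeg (hL : L.PosDef) (hφ : Measurable (φ L)) : Measurable (leg (φ L) (R L)) :=
  (measurable_id.inner (h.pot L hL).measR).sub (hφ.comp (h.pot L hL).measR)

end Fam

/-- the functional `F` -/
def FF (γ : Measure (E n)) (T : Matrix (Fin n) (Fin n) ℝ → E n → E n)
    (L : Matrix (Fin n) (Fin n) ℝ) : ℝ := ∫ z, inner ℝ (T L z) z ∂γ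

namespace Fam

variable (h : Fam γ μ φ T R) {L L' : Matrix (Fin n) (Fin n) ℝ}

include h

theorem int_Tz (hL : L.PosDef) : Integrable (fun z => inner ℝ (T L z) z) γ :=
  int_inner (h.pot L hL).measT measurable_id (h.int_T2 hL) h.γ2

theorem FF_eq (hL : L.PosDef) : FF γ T L = ∫ x, inner ℝ (act L x) (Zf R L x) ∂μ := by
  have hp := h.pot L hL
  have h1 := h.integral_T hL (f := fun y => inner ℝ y (R L y))
    (measurable_id.inner hp.measR)
  simp only [hp.left] at h1
  exact h1

theorem int_LZ (hL : L.PosDef) (S : Matrix (Fin n) (Fin n) ℝ) :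
    Integrable (fun x => inner ℝ (act S x) (Zf R L x)) μ :=
  int_inner (act S).continuous.measurable (h.meas_Z hL) (int_act h.μ2 S) (h.int_Z2 hL)

theorem int_φZ (hL : L.PosDef) (hL' : L'.PosDef) : Integrable (fun x => φ L' (Zf R L x)) μ := by
  have h1 : Integrable (φ L') (μ.map (Zf R L)) := by
    rw [h.map_Z hL]; exact (h.pot L' hL').intφ
  exact h1.comp_measurable (h.meas_Z hL)

theorem integral_φZ (hL : L.PosDef) (hL' : L'.PosDef) :
    ∫ x, φ L' (Zf R L x) ∂μ = ∫ z, φ L' z ∂γ := by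
  have h1 : AEStronglyMeasurable (φ L') (μ.map (Zf R L)) := by
    rw [h.map_Z hL]; exact (h.pot L' hL').intφ.aestronglyMeasurable
  rw [← integral_map (h.meas_Z hL).aemeasurable h1, h.map_Z hL]

/-- the potential side: `∫ φ*(L x) dμ = ∫ (⟨T z, z⟩ - φ z) dγ`, with integrability -/
theorem int_leg (hL : L.PosDef) : Integrable (fun x => leg (φ L) (R L) (act L x)) μ := by
  have hp := h.pot L hL
  have e : (fun x => leg (φ L) (R L) (act L x)) = fun x =>
      inner ℝ (act L x) (Zf R L x) - φ L (Zf R L x) := rfl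
  rw [e]
  exact (h.int_LZ hL L).sub (h.int_φZ hL hL)

theorem integral_leg (hL : L.PosDef) :
    ∫ x, leg (φ L) (R L) (act L x) ∂μ = FF γ T L - ∫ z, φ L z ∂γ := by
  have e : (fun x => leg (φ L) (R L) (act L x)) = fun x =>
      inner ℝ (act L x) (Zf R L x) - φ L (Zf R L x) := rfl
  rw [e, integral_sub (h.int_LZ hL L) (h.int_φZ hL hL), ← h.FF_eq hL, h.integral_φZ hL hL]

/-- comparison of the functional at two matrices -/
theorem le_FF (hL : L.PosDef) (hL' : L'.PosDef) :
    ∫ x, inner ℝ (act L' x) (Zf R L x) ∂μ ≤ FF γ T L' := by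
  have h1 : ∫ x, inner ℝ (act L' x) (Zf R L x) ∂μ ≤
      ∫ x, (leg (φ L') (R L') (act L' x) + φ L' (Zf R L x)) ∂μ :=
    integral_mono (h.int_LZ hL L') ((h.int_leg hL').add (h.int_φZ hL hL')) fun x =>
      (h.pot L' hL').inner_le _ _
  rw [integral_add (h.int_leg hL') (h.int_φZ hL hL'), h.integral_leg hL',
    h.integral_φZ hL hL'] at h1
  linarith

end Fam

end Main

/-! ### matrices -/

theorem det_le_pow {L : Matrix (Fin n) (Fin n) ℝ} (hL : L.PosSemidef) :
    L.det ≤ L.trace ^ n := by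
  have h1 : L.det = ∏ i, hL.isHermitian.eigenvalues i := by
    have := hL.isHermitian.det_eq_prod_eigenvalues
    simpa using this
  have h2 : L.trace = ∑ i, hL.isHermitian.eigenvalues i := by
    have := hL.isHermitian.trace_eq_sum_eigenvalues
    simpa using this
  have h3 : ∀ i, 0 ≤ hL.isHermitian.eigenvalues i := fun i => hL.eigenvalues_nonneg i
  rw [h1, h2]
  calc ∏ i, hL.isHermitian.eigenvalues i ≤ ∏ _i : Fin n, ∑ j, hL.isHermitian.eigenvalues j :=
        Finset.prod_le_prod (fun i _ => h3 i) fun i _ =>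
          Finset.single_le_sum (fun j _ => h3 j) (Finset.mem_univ i)
    _ = _ := by simp

theorem abs_entry_le {L : Matrix (Fin n) (Fin n) ℝ} (hL : L.PosSemidef) (i j : Fin n) :
    |L i j| ≤ L.trace := by
  have hd : ∀ i, 0 ≤ L i i := fun i => hL.diag_nonneg
  have hs : L j i = L i j := by
    have := hL.isHermitian.apply i j
    simpa using this
  have ht : ∀ i, L i i ≤ L.trace := fun i =>
    Finset.single_le_sum (f := fun k => L k k) (fun k _ => hd k) (Finset.mem_univ i)
  have hq : ∀ a b : ℝ, 0 ≤ a * a * L i i + a * b * L i j + b * a * L j i + b * b * L j j := by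
    intro a b
    have h1 := hL.dotProduct_mulVec_nonneg (Pi.single i a + Pi.single j b)
    have h2 : star (Pi.single i a + Pi.single j b : Fin n → ℝ) ⬝ᵥ
        (L *ᵥ (Pi.single i a + Pi.single j b)) =
        a * a * L i i + a * b * L i j + b * a * L j i + b * b * L j j := by
      rw [star_trivial, mulVec_add, dotProduct_add, add_dotProduct, add_dotProduct]
      simp [mulVec_single, dotProduct_smul]
      ring
    rwa [h2] at h1
  have q1 := hq 1 1
  have q2 := hq 1 (-1)
  rw [hs] at q1 q2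
  rw [abs_le]
  have := ht i
  have := ht j
  constructor <;> nlinarith

theorem isClosed_posSemidef : IsClosed {L : Matrix (Fin n) (Fin n) ℝ | L.PosSemidef} := by
  simp only [posSemidef_iff_dotProduct_mulVec, Set.ofPred_and, Set.ofPred_forall]
  refine IsClosed.inter ?_ (isClosed_iInter fun x => ?_)
  · exact isClosed_eq (by fun_prop) continuous_id
  · refine isClosed_le continuous_const ?_
    fun_prop

/-- the compact set on which the functional is minimised -/
theorem isCompact_set (r δ : ℝ) :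
    IsCompact {L : Matrix (Fin n) (Fin n) ℝ | L.PosSemidef ∧ L.trace ≤ r ∧ δ ≤ L.det} := by
  have h1 : IsCompact (Set.univ.pi fun _ : Fin n => Set.univ.pi fun _ : Fin n =>
      Set.Icc (-r) r : Set (Matrix (Fin n) (Fin n) ℝ)) :=
    isCompact_univ_pi fun _ => isCompact_univ_pi fun _ => isCompact_Icc
  refine h1.of_isClosed_subset ?_ ?_
  · have c1 : Continuous fun L : Matrix (Fin n) (Fin n) ℝ => L.trace :=
      Continuous.matrix_trace continuous_id
    have c2 : Continuous fun L : Matrix (Fin n) (Fin n) ℝ => L.det :=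
      Continuous.matrix_det continuous_id
    exact isClosed_posSemidef.inter ((isClosed_le c1 continuous_const).inter
      (isClosed_le continuous_const c2))
  · rintro L ⟨h2, h3, -⟩ i - j -
    have := abs_le.1 ((abs_entry_le h2 i j).trans h3)
    exact ⟨this.1, this.2⟩

theorem exists_lower {L : Matrix (Fin n) (Fin n) ℝ} (hL : L.PosDef) :
    ∃ a : ℝ, 0 < a ∧ ∀ x : E n, a * ‖x‖ ^ 2 ≤ inner ℝ x (act L x) := by
  have hpos : ∀ x : E n, x ≠ 0 → 0 < inner ℝ x (act L x) := by
    intro x hx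
    rw [Matrix.inner_toEuclideanCLM]
    have h1 := hL.dotProduct_mulVec_pos (x := WithLp.ofLp x) (by
      intro h0; apply hx; ext i; exact congrFun h0 i)
    simpa using h1
  have hcont : Continuous fun x : E n => inner ℝ x (act L x) :=
    continuous_id.inner (act L).continuous
  rcases (Metric.sphere (0 : E n) 1).eq_empty_or_nonempty with he | hne
  · refine ⟨1, one_pos, fun x => ?_⟩
    have hx : x = 0 := by
      by_contra h0
      have : (‖x‖⁻¹ • x) ∈ Metric.sphere (0 : E n) 1 := by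
        rw [mem_sphere_zero_iff_norm, norm_smul, norm_inv, norm_norm,
          inv_mul_cancel₀ (norm_ne_zero_iff.2 h0)]
      rw [he] at this
      exact this
    rw [hx]; simp
  · obtain ⟨x₀, hx₀, hmin⟩ := (isCompact_sphere (0 : E n) 1).exists_isMinOn hne
      hcont.continuousOn
    have hx₀' : x₀ ≠ 0 := by
      intro h0; rw [h0] at hx₀; simp at hx₀
    refine ⟨inner ℝ x₀ (act L x₀), hpos x₀ hx₀', fun x => ?_⟩
    by_cases hx : x = 0
    · rw [hx]; simp
    have hn : ‖x‖ ≠ 0 := norm_ne_zero_iff.2 hx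
    have hs : (‖x‖⁻¹ • x) ∈ Metric.sphere (0 : E n) 1 := by
      rw [mem_sphere_zero_iff_norm, norm_smul, norm_inv, norm_norm, inv_mul_cancel₀ hn]
    have h1 := hmin hs
    simp only [Set.mem_ofPred_eq] at h1
    have h2 : inner ℝ (‖x‖⁻¹ • x) (act L (‖x‖⁻¹ • x)) =
        (‖x‖ ^ 2)⁻¹ * inner ℝ x (act L x) := by
      rw [map_smul, real_inner_smul_left, real_inner_smul_right]
      field_simp
    rw [h2] at h1
    have h3 : 0 < ‖x‖ ^ 2 := by positivity
    calc inner ℝ x₀ (act L x₀) * ‖x‖ ^ 2 ≤ ((‖x‖ ^ 2)⁻¹ * inner ℝ x (act L x)) * ‖x‖ ^ 2 :=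
          mul_le_mul_of_nonneg_right h1 h3.le
      _ = _ := by field_simp

/-- positive definiteness is stable under small symmetric perturbations -/
theorem eventually_posDef {L S : Matrix (Fin n) (Fin n) ℝ} (hL : L.PosDef) (hS : Sᵀ = S) :
    ∀ᶠ ε : ℝ in 𝓝 0, (L + ε • S).PosDef := by
  obtain ⟨a, ha, hlow⟩ := exists_lower hL
  have h1 : ∀ᶠ ε : ℝ in 𝓝 0, |ε| * ‖act S‖ < a := by
    have : Tendsto (fun ε : ℝ => |ε| * ‖act S‖) (𝓝 0) (𝓝 (|0| * ‖act S‖)) :=
      (continuous_abs.tendsto 0).mul_const _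
    rw [abs_zero, zero_mul] at this
    exact this.eventually (gt_mem_nhds ha)
  filter_upwards [h1] with ε hε
  rw [posDef_iff_dotProduct_mulVec]
  refine ⟨?_, fun x hx => ?_⟩
  · rw [Matrix.IsHermitian, conjTranspose_eq_transpose_of_trivial, transpose_add,
      transpose_smul, hS]
    have := hL.isHermitian
    rw [Matrix.IsHermitian, conjTranspose_eq_transpose_of_trivial] at this
    rw [this]
  · have h2 : star x ⬝ᵥ ((L + ε • S) *ᵥ x) =
        inner ℝ (WithLp.toLp 2 x : E n) (act L (WithLp.toLp 2 x)) +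
          ε * inner ℝ (WithLp.toLp 2 x : E n) (act S (WithLp.toLp 2 x)) := by
      rw [Matrix.inner_toEuclideanCLM, Matrix.inner_toEuclideanCLM, star_trivial, add_mulVec,
        dotProduct_add, smul_mulVec, dotProduct_smul, smul_eq_mul]
    rw [h2]
    have hx' : (WithLp.toLp 2 x : E n) ≠ 0 := by
      intro h0; apply hx; funext i
      exact congrArg (fun y : E n => y i) h0
    have h3 : 0 < ‖(WithLp.toLp 2 x : E n)‖ := norm_pos_iff.2 hx'
    have h4 := hlow (WithLp.toLp 2 x)
    have h5 : |ε * inner ℝ (WithLp.toLp 2 x : E n) (act S (WithLp.toLp 2 x))| ≤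
        |ε| * ‖act S‖ * ‖(WithLp.toLp 2 x : E n)‖ ^ 2 := by
      rw [abs_mul]
      have h6 := abs_real_inner_le_norm (WithLp.toLp 2 x : E n) (act S (WithLp.toLp 2 x))
      have h7 := (act S).le_opNorm (WithLp.toLp 2 x : E n)
      calc |ε| * |inner ℝ (WithLp.toLp 2 x : E n) (act S (WithLp.toLp 2 x))| ≤
            |ε| * (‖(WithLp.toLp 2 x : E n)‖ * (‖act S‖ * ‖(WithLp.toLp 2 x : E n)‖)) :=
            mul_le_mul_of_nonneg_left (h6.trans (mul_le_mul_of_nonneg_left h7 (norm_nonneg _)))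
              (abs_nonneg _)
        _ = _ := by ring
    have h8 := neg_abs_le (ε * inner ℝ (WithLp.toLp 2 x : E n) (act S (WithLp.toLp 2 x)))
    have h9 : |ε| * ‖act S‖ * ‖(WithLp.toLp 2 x : E n)‖ ^ 2 <
        a * ‖(WithLp.toLp 2 x : E n)‖ ^ 2 := mul_lt_mul_of_pos_right hε (by positivity)
    linarith

/-- the derivative of `log det` -/
theorem hasDerivAt_logdet {L S : Matrix (Fin n) (Fin n) ℝ} (hL : L.PosDef) :
    HasDerivAt (fun ε : ℝ => Real.log (L + ε • S).det) ((L⁻¹ * S).trace) 0 := by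
  have hd : L.det ≠ 0 := hL.det_pos.ne'
  have hu : IsUnit L.det := hd.isUnit
  have e1 : ∀ ε : ℝ, (L + ε • S).det = L.det * (1 + ε • (L⁻¹ * S)).det := fun ε => by
    rw [← det_mul, mul_add, mul_one, mul_smul_comm, mul_nonsing_inv_cancel_left _ _ hu]
  have h1 : HasDerivAt (fun ε : ℝ => (1 + ε • (L⁻¹ * S)).det) ((L⁻¹ * S).trace) 0 := by
    have e2 : (fun ε : ℝ => (1 + ε • (L⁻¹ * S)).det) = fun ε : ℝ =>
        1 + (L⁻¹ * S).trace * ε +
          (det (1 + (Polynomial.X : Polynomial ℝ) • (L⁻¹ * S).map Polynomial.C)).divX.divX.eval ε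
            * ε ^ 2 := funext fun ε => det_one_add_smul ε _
    rw [e2]
    set P := (det (1 + (Polynomial.X : Polynomial ℝ) •
      (L⁻¹ * S).map Polynomial.C)).divX.divX with hP
    have h3 : HasDerivAt (fun ε : ℝ => P.eval ε * ε ^ 2) 0 0 := by
      have h4 := (P.hasDerivAt 0).fun_mul (hasDerivAt_pow 2 (0 : ℝ))
      simpa using h4
    have h5 : HasDerivAt (fun ε : ℝ => 1 + (L⁻¹ * S).trace * ε) ((L⁻¹ * S).trace) 0 := by
      simpa using ((hasDerivAt_id (0 : ℝ)).const_mul ((L⁻¹ * S).trace)).const_add 1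
    simpa using h5.fun_add h3
  have h2 : HasDerivAt (fun ε : ℝ => (L + ε • S).det) (L.det * (L⁻¹ * S).trace) 0 := by
    rw [show (fun ε : ℝ => (L + ε • S).det) = fun ε : ℝ => L.det * (1 + ε • (L⁻¹ * S)).det from
      funext e1]
    exact h1.const_mul _
  have h3 : HasDerivAt (fun ε : ℝ => Real.log (L + ε • S).det)
      (L.det * (L⁻¹ * S).trace / (L + (0 : ℝ) • S).det) 0 := h2.log (by simpa using hd)
  rwa [zero_smul, add_zero, mul_div_cancel_left₀ _ hd] at h3

/-! ### the minimisation -/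

section Final

variable {γ μ : Measure (E n)} [IsProbabilityMeasure γ] [IsProbabilityMeasure μ]
  {φ : Matrix (Fin n) (Fin n) ℝ → E n → ℝ} {T R : Matrix (Fin n) (Fin n) ℝ → E n → E n}

theorem act_one (x : E n) : act (1 : Matrix (Fin n) (Fin n) ℝ) x = x := by
  ext i; simp [act]

theorem act_mul (A B : Matrix (Fin n) (Fin n) ℝ) (x : E n) :
    act (A * B) x = act A (act B x) := by
  simp only [act, map_mul]; rfl

theorem Fam.FF_lip (h : Fam γ μ φ T R) {L L' : Matrix (Fin n) (Fin n) ℝ} (hL : L.PosDef)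
    (hL' : L'.PosDef) :
    FF γ T L - ‖act (L' - L)‖ * (∫ x, ‖x‖ ^ 2 ∂μ + ∫ z, ‖z‖ ^ 2 ∂γ) ≤ FF γ T L' := by
  have h1 := h.le_FF hL hL'
  have e : ∫ x, inner ℝ (act L' x) (Zf R L x) ∂μ =
      FF γ T L + ∫ x, inner ℝ (act (L' - L) x) (Zf R L x) ∂μ := by
    rw [h.FF_eq hL, ← integral_add (h.int_LZ hL L) (h.int_LZ hL _)]
    congr 1; funext x
    rw [← inner_add_left]
    congr 1
    simp only [act, map_sub, _root_.sub_apply]
    abel
  have hz : ∫ x, ‖Zf R L x‖ ^ 2 ∂μ = ∫ z, ‖z‖ ^ 2 ∂γ := by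
    rw [← h.map_Z hL, integral_map (h.meas_Z hL).aemeasurable (by fun_prop)]
  have b : |∫ x, inner ℝ (act (L' - L) x) (Zf R L x) ∂μ| ≤
      ‖act (L' - L)‖ * (∫ x, ‖x‖ ^ 2 ∂μ + ∫ z, ‖z‖ ^ 2 ∂γ) := by
    rw [← hz, ← integral_add h.μ2 (h.int_Z2 hL), ← integral_const_mul, ← Real.norm_eq_abs]
    refine (norm_integral_le_integral_norm _).trans ?_
    refine integral_mono (h.int_LZ hL _).norm ((h.μ2.add (h.int_Z2 hL)).const_mul _) fun x => ?_
    simp only [Real.norm_eq_abs]
    have h2 := abs_real_inner_le_norm (act (L' - L) x) (Zf R L x)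
    have h3 := (act (L' - L)).le_opNorm x
    have h4 : ‖x‖ * ‖Zf R L x‖ ≤ ‖x‖ ^ 2 + ‖Zf R L x‖ ^ 2 := by
      nlinarith [sq_nonneg (‖x‖ - ‖Zf R L x‖), sq_nonneg ‖x‖, sq_nonneg ‖Zf R L x‖,
        norm_nonneg x, norm_nonneg (Zf R L x)]
    calc |inner ℝ (act (L' - L) x) (Zf R L x)| ≤ ‖act (L' - L) x‖ * ‖Zf R L x‖ := h2
      _ ≤ (‖act (L' - L)‖ * ‖x‖) * ‖Zf R L x‖ :=
          mul_le_mul_of_nonneg_right h3 (norm_nonneg _)
      _ = ‖act (L' - L)‖ * (‖x‖ * ‖Zf R L x‖) := by ring
      _ ≤ _ := mul_le_mul_of_nonneg_left h4 (norm_nonneg _)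
  rw [e] at h1
  have := (abs_le.1 b).1
  linarith

theorem continuous_act : Continuous fun L : Matrix (Fin n) (Fin n) ℝ => act L :=
  LinearMap.continuous_of_finiteDimensional
    ((Matrix.toEuclideanCLM (𝕜 := ℝ) (n := Fin n)).toAlgEquiv.toLinearMap)

theorem Fam.continuousOn_FF (h : Fam γ μ φ T R) :
    ContinuousOn (FF γ T) {L : Matrix (Fin n) (Fin n) ℝ | L.PosDef} := by
  intro L₀ hL₀
  set C := ∫ x, ‖x‖ ^ 2 ∂μ + ∫ z, ‖z‖ ^ 2 ∂γ with hC
  have h1 : Tendsto (fun L : Matrix (Fin n) (Fin n) ℝ => ‖act (L - L₀)‖ * C)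
      (𝓝[{L | L.PosDef}] L₀) (𝓝 0) := by
    have h2 : Continuous fun L : Matrix (Fin n) (Fin n) ℝ => ‖act (L - L₀)‖ * C :=
      ((continuous_act.comp (continuous_id.sub continuous_const)).norm).mul_const _
    have h3 := h2.tendsto L₀
    simp only [sub_self] at h3
    have h4 : ‖act (0 : Matrix (Fin n) (Fin n) ℝ)‖ * C = 0 := by simp [act]
    rw [h4] at h3
    exact h3.mono_left nhdsWithin_le_nhds
  rw [ContinuousWithinAt, tendsto_iff_norm_sub_tendsto_zero]
  refine squeeze_zero' (Eventually.of_forall fun _ => norm_nonneg _) ?_ h1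
  filter_upwards [self_mem_nhdsWithin] with L hL
  have a1 := h.FF_lip hL₀ hL
  have a2 := h.FF_lip hL hL₀
  have e : ‖act (L₀ - L)‖ = ‖act (L - L₀)‖ := by
    rw [← neg_sub L L₀]
    simp only [act, map_neg, norm_neg]
  rw [e] at a2
  rw [Real.norm_eq_abs, abs_le]
  constructor <;> linarith

/-- coercivity -/
theorem Fam.le_trace (h : Fam γ μ φ T R) {c : ℝ}
    (hM : ∀ S : Matrix (Fin n) (Fin n) ℝ, S.PosSemidef →
      c * S.trace ≤ ∫ z, inner ℝ (act S (T 1 z)) z ∂γ)
    {L : Matrix (Fin n) (Fin n) ℝ} (hL : L.PosDef) : c * L.trace ≤ FF γ T L := by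
  have h1 := h.le_FF Matrix.PosDef.one hL
  have h2 := h.integral_T Matrix.PosDef.one (f := fun y => inner ℝ (act L y) (R 1 y))
    ((act L).continuous.measurable.inner (h.pot 1 Matrix.PosDef.one).measR)
  simp only [(h.pot 1 Matrix.PosDef.one).left, act_one] at h2
  have h3 := hM L hL.posSemidef
  rw [h2] at h3
  refine h3.trans (le_trans (le_of_eq ?_) h1)
  simp only [Zf, act_one]

/-- the functional which is minimised -/
def HH (γ : Measure (E n)) (T : Matrix (Fin n) (Fin n) ℝ → E n → E n)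
    (L : Matrix (Fin n) (Fin n) ℝ) : ℝ := FF γ T L - Real.log L.det

theorem Fam.exists_min (h : Fam γ μ φ T R) {c : ℝ} (hc : 0 < c)
    (hM : ∀ S : Matrix (Fin n) (Fin n) ℝ, S.PosSemidef →
      c * S.trace ≤ ∫ z, inner ℝ (act S (T 1 z)) z ∂γ) :
    ∃ L₀ : Matrix (Fin n) (Fin n) ℝ, L₀.PosDef ∧
      ∀ L : Matrix (Fin n) (Fin n) ℝ, L.PosDef → HH γ T L₀ ≤ HH γ T L := by
  set h₀ := HH γ T 1 with hh₀
  set a : ℝ := c / (2 * (n + 1)) with ha
  have ha0 : 0 < a := by positivity
  -- bound of the trace on the sublevel set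
  set r : ℝ := max (2 / c * (h₀ + n * (-1 - Real.log a))) n with hr
  set δ : ℝ := min (Real.exp (-h₀)) 1 with hδ
  have hδ0 : 0 < δ := lt_min (Real.exp_pos _) one_pos
  have hsub : ∀ L : Matrix (Fin n) (Fin n) ℝ, L.PosDef → HH γ T L ≤ h₀ →
      L.trace ≤ r ∧ δ ≤ L.det := by
    intro L hL hle
    have h1 := h.le_trace hM hL
    have hdet := hL.det_pos
    have htr0 : 0 ≤ L.trace := Finset.sum_nonneg fun i _ => hL.posSemidef.diag_nonneg
    unfold HH at hle
    constructor
    · rcases htr0.eq_or_lt with ht | ht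
      · rw [← ht]
        exact le_max_of_le_right (Nat.cast_nonneg n)
      refine le_max_of_le_left ?_
      have h2 : Real.log L.det ≤ n * Real.log L.trace := by
        rw [← Real.log_pow]
        exact Real.log_le_log hdet (det_le_pow hL.posSemidef)
      have h3 : Real.log L.trace ≤ a * L.trace - 1 - Real.log a := by
        have := Real.log_le_sub_one_of_pos (mul_pos ha0 ht)
        rw [Real.log_mul ha0.ne' ht.ne'] at this
        linarith
      have h4 : (n : ℝ) * Real.log L.trace ≤ n * (a * L.trace - 1 - Real.log a) :=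
        mul_le_mul_of_nonneg_left h3 (Nat.cast_nonneg n)
      have h5 : (n : ℝ) * (a * L.trace) ≤ c / 2 * L.trace := by
        have : (n : ℝ) * a ≤ c / 2 := by
          rw [ha, mul_div_assoc', div_le_div_iff₀ (by positivity) (by norm_num)]
          nlinarith
        calc (n : ℝ) * (a * L.trace) = (n * a) * L.trace := by ring
          _ ≤ _ := mul_le_mul_of_nonneg_right this ht.le
      have h6 : c / 2 * L.trace ≤ h₀ + n * (-1 - Real.log a) := by nlinarith
      calc L.trace = 2 / c * (c / 2 * L.trace) := by field_simp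
        _ ≤ _ := mul_le_mul_of_nonneg_left h6 (by positivity)
    · refine (min_le_left _ _).trans ?_
      have h2 : -h₀ ≤ Real.log L.det := by
        have : 0 ≤ c * L.trace := by positivity
        linarith
      calc Real.exp (-h₀) ≤ Real.exp (Real.log L.det) := Real.exp_le_exp.2 h2
        _ = L.det := Real.exp_log hdet
  set K : Set (Matrix (Fin n) (Fin n) ℝ) := {L | L.PosSemidef ∧ L.trace ≤ r ∧ δ ≤ L.det} with hK
  have hKpos : ∀ L ∈ K, L.PosDef := fun L hL =>
    hL.1.posDef_iff_det_ne_zero.2 (hδ0.trans_le hL.2.2).ne'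
  have h1K : (1 : Matrix (Fin n) (Fin n) ℝ) ∈ K := by
    refine ⟨Matrix.PosSemidef.one, ?_, ?_⟩
    · rw [trace_one, Fintype.card_fin]; exact le_max_right _ _
    · rw [det_one]; exact min_le_right _ _
  have hcont : ContinuousOn (HH γ T) K := by
    have c1 : ContinuousOn (FF γ T) K := h.continuousOn_FF.mono hKpos
    have c2 : ContinuousOn (fun L : Matrix (Fin n) (Fin n) ℝ => Real.log L.det) K :=
      ContinuousOn.log (Continuous.matrix_det continuous_id).continuousOn
        fun L hL => (hδ0.trans_le hL.2.2).ne'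
    exact c1.sub c2
  obtain ⟨L₀, hL₀, hmin⟩ := (isCompact_set r δ).exists_isMinOn ⟨1, h1K⟩ hcont
  refine ⟨L₀, hKpos L₀ hL₀, fun L hL => ?_⟩
  by_cases hle : HH γ T L ≤ h₀
  · exact hmin ⟨hL.posSemidef, hsub L hL hle⟩
  · have := hmin h1K
    simp only [Set.mem_ofPred_eq] at this
    exact this.trans (not_le.1 hle).le

/-- the Euler-Lagrange equation -/
theorem Fam.first_order (h : Fam γ μ φ T R) {L₀ S : Matrix (Fin n) (Fin n) ℝ} (hL₀ : L₀.PosDef)
    (hmin : ∀ L : Matrix (Fin n) (Fin n) ℝ, L.PosDef → HH γ T L₀ ≤ HH γ T L) (hS : Sᵀ = S) :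
    ∫ x, inner ℝ (Zf R L₀ x) (act S x) ∂μ = (L₀⁻¹ * S).trace := by
  obtain ⟨C, hC0, hC⟩ := (h.pot L₀ hL₀).lip
  set A := ∫ x, inner ℝ (Zf R L₀ x) (act S x) ∂μ with hA
  set B := C * ∫ x, ‖act S x‖ ^ 2 ∂μ with hB
  set f : ℝ → ℝ := fun ε => ε * A + ε ^ 2 * B -
    (Real.log (L₀ + ε • S).det - Real.log L₀.det) with hf
  have i1 : Integrable (fun x => inner ℝ (Zf R L₀ x) (act S x)) μ := by
    have := h.int_LZ hL₀ S
    simpa only [real_inner_comm] using this
  have hpos : ∀ᶠ ε in 𝓝 (0 : ℝ), f 0 ≤ f ε := by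
    filter_upwards [eventually_posDef hL₀ hS] with ε hε
    have h0 : f 0 = 0 := by simp [hf]
    rw [h0]
    have h1 := hmin _ hε
    unfold HH at h1
    have h2 : FF γ T (L₀ + ε • S) ≤ FF γ T L₀ + ε * A + ε ^ 2 * B := by
      rw [h.FF_eq hε]
      have hpt : ∀ x, inner ℝ (act (L₀ + ε • S) x) (Zf R (L₀ + ε • S) x) ≤
          leg (φ L₀) (R L₀) (act L₀ x) + ε * inner ℝ (Zf R L₀ x) (act S x) +
            ε ^ 2 * (C * ‖act S x‖ ^ 2) + φ L₀ (Zf R (L₀ + ε • S) x) := by
        intro x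
        have e1 : act (L₀ + ε • S) x = act L₀ x + ε • act S x := by
          simp only [act, map_add, map_smul]; rfl
        have h3 := (h.pot L₀ hL₀).inner_le (act (L₀ + ε • S) x) (Zf R (L₀ + ε • S) x)
        have h4 := (h.pot L₀ hL₀).leg_le hC (act L₀ x) (ε • act S x)
        rw [← e1] at h4
        have h5 : inner ℝ (R L₀ (act L₀ x)) (ε • act S x) =
            ε * inner ℝ (Zf R L₀ x) (act S x) := real_inner_smul_right _ _ _
        have h6 : C * ‖ε • act S x‖ ^ 2 = ε ^ 2 * (C * ‖act S x‖ ^ 2) := by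
          rw [norm_smul, mul_pow, Real.norm_eq_abs, sq_abs]; ring
        rw [h5, h6] at h4
        linarith
      have i2 := h.int_leg hL₀
      have i3 := i1.const_mul ε
      have i4 := ((int_act h.μ2 S).const_mul C).const_mul (ε ^ 2)
      have i5 := h.int_φZ hε hL₀
      have i23 : Integrable (fun x => leg (φ L₀) (R L₀) (act L₀ x) +
          ε * inner ℝ (Zf R L₀ x) (act S x)) μ := i2.add i3
      have i234 : Integrable (fun x => leg (φ L₀) (R L₀) (act L₀ x) +
          ε * inner ℝ (Zf R L₀ x) (act S x) + ε ^ 2 * (C * ‖act S x‖ ^ 2)) μ := i23.add i4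
      have h7 := integral_mono (h.int_LZ hε (L₀ + ε • S)) (i234.add i5) hpt
      have h8 : ∫ x, (leg (φ L₀) (R L₀) (act L₀ x) + ε * inner ℝ (Zf R L₀ x) (act S x) +
            ε ^ 2 * (C * ‖act S x‖ ^ 2) + φ L₀ (Zf R (L₀ + ε • S) x)) ∂μ =
          FF γ T L₀ + ε * A + ε ^ 2 * B := by
        rw [integral_add i234 i5, integral_add i23 i4, integral_add i2 i3, h.integral_leg hL₀, h.integral_φZ hε hL₀, integral_const_mul,
          integral_const_mul, integral_const_mul]
        ring
      exact h7.trans h8.le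
    simp only [hf]
    linarith
  have hder : HasDerivAt f (A - (L₀⁻¹ * S).trace) 0 := by
    have d1 : HasDerivAt (fun ε : ℝ => ε * A + ε ^ 2 * B) A 0 := by
      have := ((hasDerivAt_id (0 : ℝ)).mul_const A).fun_add ((hasDerivAt_pow 2 (0 : ℝ)).mul_const B)
      simpa using this
    exact d1.fun_sub ((hasDerivAt_logdet hL₀).sub_const _)
  have hmin' : IsLocalMin f 0 := hpos
  have := hmin'.hasDerivAt_eq_zero hder
  linarith

/-- **The gauge.** -/
theorem Fam.exists_gauge (h : Fam γ μ φ T R) {c : ℝ} (hc : 0 < c)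
    (hM : ∀ S : Matrix (Fin n) (Fin n) ℝ, S.PosSemidef →
      c * S.trace ≤ ∫ z, inner ℝ (act S (T 1 z)) z ∂γ)
    (hsymm : ∀ L : Matrix (Fin n) (Fin n) ℝ, L.PosDef → ∀ i j,
      ∫ z, z i * T L z j ∂γ = ∫ z, z j * T L z i ∂γ) :
    ∃ L : Matrix (Fin n) (Fin n) ℝ, L.PosDef ∧
      ∀ i j, ∫ z, z i * T L z j ∂γ = if i = j then 1 else 0 := by
  obtain ⟨L₀, hL₀, hmin⟩ := h.exists_min hc hM
  refine ⟨L₀, hL₀, ?_⟩
  have hp := h.pot L₀ hL₀
  set M : Matrix (Fin n) (Fin n) ℝ := fun i j => ∫ z, z i * T L₀ z j ∂γ with hMd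
  set N : Matrix (Fin n) (Fin n) ℝ := M - 1 with hN
  have hMs : Mᵀ = M := by
    ext i j
    exact hsymm L₀ hL₀ j i
  have hNs : Nᵀ = N := by rw [hN, transpose_sub, hMs, transpose_one]
  have hu : IsUnit L₀.det := hL₀.det_pos.ne'.isUnit
  have hLi : (L₀⁻¹)ᵀ = L₀⁻¹ := by
    have h1 := hL₀.inv.isHermitian
    rwa [Matrix.IsHermitian, conjTranspose_eq_transpose_of_trivial] at h1
  have h1 := h.first_order hL₀ hmin hNs
  -- the left side in terms of `M`
  have h2 : ∫ x, inner ℝ (Zf R L₀ x) (act N x) ∂μ =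
      ∫ z, inner ℝ z (act (N * L₀⁻¹) (T L₀ z)) ∂γ := by
    have h3 := h.integral_T hL₀ (f := fun y => inner ℝ (R L₀ y) (act (N * L₀⁻¹) y))
      (hp.measR.inner (act (N * L₀⁻¹)).continuous.measurable)
    simp only [hp.left] at h3
    rw [h3]
    congr 1; funext x
    rw [← act_mul, mul_assoc, nonsing_inv_mul _ hu, mul_one]
    rfl
  have iij : ∀ i j, Integrable (fun z => z i * T L₀ z j) γ := fun i j => by
    refine (h.γ2.add (h.int_T2 hL₀)).mono' ?_ (Eventually.of_forall fun z => ?_)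
    · have m1 : Measurable fun z : E n => z i := by fun_prop
      have m2 : Measurable fun z : E n => T L₀ z j := by
        have := hp.measT
        fun_prop
      exact (m1.mul m2).aestronglyMeasurable
    · have a1 : |z i| ≤ ‖z‖ := by simpa using PiLp.norm_apply_le z i
      have a2 : |T L₀ z j| ≤ ‖T L₀ z‖ := by simpa using PiLp.norm_apply_le (T L₀ z) j
      simp only [Pi.add_apply, Real.norm_eq_abs, abs_mul]
      have := mul_le_mul a1 a2 (abs_nonneg _) (norm_nonneg _)
      nlinarith [sq_nonneg (‖z‖ - ‖T L₀ z‖), norm_nonneg z, norm_nonneg (T L₀ z)]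
  have h4 : ∫ z, inner ℝ z (act (N * L₀⁻¹) (T L₀ z)) ∂γ =
      ∑ i, ∑ j, (N * L₀⁻¹) i j * M i j := by
    set W : Fin n → Fin n → ℝ := fun i j => (N * L₀⁻¹) i j with hW
    have e : ∀ z : E n, inner ℝ z (act (N * L₀⁻¹) (T L₀ z)) =
        ∑ i, ∑ j, W i j * (z i * T L₀ z j) := fun z => by
      rw [Matrix.inner_toEuclideanCLM]
      simp only [dotProduct, mulVec, Finset.mul_sum, hW]
      refine Finset.sum_congr rfl fun i _ => Finset.sum_congr rfl fun j _ => ?_
      ring
    have e2 : ∫ z, inner ℝ z (act (N * L₀⁻¹) (T L₀ z)) ∂γ =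
        ∫ z, ∑ i, ∑ j, W i j * (z i * T L₀ z j) ∂γ := by
      congr 1; funext z; exact e z
    rw [e2, integral_finsetSum _ fun i _ => integrable_finsetSum _ fun j _ =>
      (iij i j).const_mul _]
    refine Finset.sum_congr rfl fun i _ => ?_
    rw [integral_finsetSum _ fun j _ => (iij i j).const_mul _]
    refine Finset.sum_congr rfl fun j _ => ?_
    rw [integral_const_mul]
  have h5 : ∑ i, ∑ j, (N * L₀⁻¹) i j * M i j = ((N * L₀⁻¹)ᵀ * M).trace := by
    simp only [trace, diag, mul_apply, transpose_apply]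
    rw [Finset.sum_comm]
  have h6 : ((N * L₀⁻¹)ᵀ * M).trace = (N * L₀⁻¹ * N).trace + (L₀⁻¹ * N).trace := by
    have e1 : M = N + 1 := by rw [hN]; abel
    rw [transpose_mul, hLi, hNs, e1, mul_add, mul_one, trace_add]
    congr 1
    rw [trace_mul_comm, ← mul_assoc]
  have h7 : (N * L₀⁻¹ * N).trace = 0 := by
    rw [h2, h4, h5, h6] at h1
    linarith
  -- conclusion
  have hcol : ∀ j, (fun i => N i j) = 0 := by
    have hpd := hL₀.inv
    have hnn : ∀ j, (N * L₀⁻¹ * N) j j = star (fun i => N i j) ⬝ᵥ (L₀⁻¹ *ᵥ fun i => N i j) := by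
      intro j
      have e1 : ∀ i, N j i = N i j := fun i => congrFun (congrFun hNs i) j
      rw [mul_assoc]
      simp only [mul_apply, dotProduct, mulVec, star_trivial, e1]
    have hge : ∀ j, 0 ≤ (N * L₀⁻¹ * N) j j := fun j => by
      rw [hnn j]; exact hpd.posSemidef.dotProduct_mulVec_nonneg _
    intro j
    have hz : (N * L₀⁻¹ * N) j j = 0 := by
      have := (Finset.sum_eq_zero_iff_of_nonneg fun j _ => hge j).1 h7 j (Finset.mem_univ j)
      exact this
    by_contra hne
    have := hpd.dotProduct_mulVec_pos hne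
    rw [← hnn j, hz] at this
    exact lt_irrefl _ this
  intro i j
  have h8 : N i j = 0 := congrFun (hcol j) i
  rw [hN, Matrix.sub_apply] at h8
  have h9 : M i j = (1 : Matrix (Fin n) (Fin n) ℝ) i j := by linarith
  rw [one_apply] at h9
  exact h9

end Final

end Vale.Agent.P254.H545
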